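import Mathlib

/-!
# Derivations into the regular representation of a finite quotient, over any commutative ring

Let `θ : Γ →* Q` be a homomorphism of groups and `R` a commutative ring.  A homomorphism
`Ψ : Γ →* (V ≃ᵃ[R] V)` into the affine group of `V = (Q → R)` whose linear part is the right
translation action of `θ g` is the same as a derivation `δ g = Ψ g 0` of `Γ` into `V`.  This file
develops the basic calculus, for the free group, over an arbitrary commutative ring, together
with functoriality in the ring.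
-/

namespace Vale.Agent.H52.PD

universe u

section Basic

variable (R : Type*) [CommRing R] {Q : Type u} [Group Q]

/-- Right translation action of `Q` on `R`-valued functions on `Q`. -/
noncomputable def rho (q : Q) : (Q → R) ≃ₗ[R] (Q → R) :=
  LinearEquiv.funCongrLeft R R (Equiv.mulRight q)

theorem rho_apply (q : Q) (f : Q → R) (x : Q) : rho R q f x = f (x * q) := rfl

theorem rho_mul (q₁ q₂ : Q) : rho R (q₁ * q₂) = rho R q₁ * rho R q₂ := by
  ext f x
  simp [rho_apply, mul_assoc]

theorem rho_one : rho R (1 : Q) = 1 := by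
  ext f x
  simp [rho_apply]

/-- `rho` as a monoid homomorphism. -/
noncomputable def rhoHom : Q →* ((Q → R) ≃ₗ[R] (Q → R)) where
  toFun := rho R
  map_one' := rho_one R
  map_mul' := rho_mul R

theorem rhoHom_apply (q : Q) : rhoHom R q = rho R q := rfl

/-- The affine map `v ↦ c + rho q v`. -/
noncomputable def aff (q : Q) (c : Q → R) : (Q → R) ≃ᵃ[R] (Q → R) :=
  AffineEquiv.constVAdd R (Q → R) c * (rho R q).toAffineEquiv

theorem aff_apply (q : Q) (c v : Q → R) : aff R q c v = c + rho R q v := rfl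

theorem aff_linear (q : Q) (c : Q → R) : (aff R q c).linear = rho R q := by
  apply LinearEquiv.ext
  intro v
  have h := (aff R q c).map_vadd (0 : Q → R) v
  rw [aff_apply, aff_apply, map_zero, add_zero] at h
  have h' : c + rho R q (v + 0) = (aff R q c).linear v + c := h
  rw [add_zero, add_comm] at h'
  exact (add_right_cancel h').symm

end Basic

section Abstract

variable {R : Type*} [CommRing R] {Q : Type u} [Group Q]
variable {Γ : Type*} [Group Γ] (θ : Γ →* Q) (Ψ : Γ →* ((Q → R) ≃ᵃ[R] (Q → R)))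

theorem psi_apply (hlin : ∀ g, (Ψ g).linear = rho R (θ g)) (g : Γ) (v : Q → R) :
    Ψ g v = rho R (θ g) v + Ψ g 0 := by
  have h := (Ψ g).map_vadd (0 : Q → R) v
  rw [hlin] at h
  simpa using h

theorem delta_mul (hlin : ∀ g, (Ψ g).linear = rho R (θ g)) (g h : Γ) :
    Ψ (g * h) 0 = Ψ g 0 + rho R (θ g) (Ψ h 0) := by
  rw [map_mul, AffineEquiv.coe_mul, Function.comp_apply, psi_apply θ Ψ hlin g (Ψ h 0), add_comm]

omit [Group Q] in
theorem delta_one : Ψ 1 0 = 0 := by
  rw [map_one]
  rfl

theorem delta_pow_of_ker (hlin : ∀ g, (Ψ g).linear = rho R (θ g)) (k : Γ) (hk : θ k = 1)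
    (j : ℕ) : Ψ (k ^ j) 0 = j • Ψ k 0 := by
  induction j with
  | zero => rw [pow_zero, zero_smul]; exact delta_one Ψ
  | succ j ih =>
    rw [pow_succ, delta_mul θ Ψ hlin, ih, map_pow, hk, one_pow, rho_one, succ_nsmul]
    rfl

/-- The value of the derivation on `w ^ e` is fixed by `rho (θ w)` when `θ w ^ e = 1`. -/
theorem rho_delta_pow (hlin : ∀ g, (Ψ g).linear = rho R (θ g)) (w : Γ) (e : ℕ)
    (he : θ w ^ e = 1) : rho R (θ w) (Ψ (w ^ e) 0) = Ψ (w ^ e) 0 := by
  have h1 : Ψ (w * w ^ e) 0 = Ψ (w ^ e * w) 0 := by rw [← pow_succ, ← pow_succ']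
  rw [delta_mul θ Ψ hlin, delta_mul θ Ψ hlin, map_pow θ w e, he, rho_one] at h1
  have h2 : Ψ w 0 + rho R (θ w) (Ψ (w ^ e) 0) = Ψ (w ^ e) 0 + Ψ w 0 := h1
  have h3 := add_left_cancel (a := Ψ w 0) (h2.trans (add_comm _ _))
  exact h3

/-- An element of the kernel of `θ` acts as the translation by its derivation value. -/
theorem psi_eq_one_iff (hlin : ∀ g, (Ψ g).linear = rho R (θ g)) (g : Γ) (hg : θ g = 1) :
    Ψ g = 1 ↔ Ψ g 0 = 0 := by
  constructor
  · intro h
    rw [h]
    rfl
  · intro h
    apply AffineEquiv.ext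
    intro v
    have := psi_apply θ Ψ hlin g v
    rw [hg, rho_one, h, add_zero] at this
    exact this

end Abstract

section Free

variable {R : Type*} [CommRing R] {Q : Type u} [Group Q]
variable {n : ℕ} (θ : FreeGroup (Fin n) →* Q)

/-- The affine representation of the free group attached to `c`. -/
noncomputable def Phi (c : Fin n → Q → R) :
    FreeGroup (Fin n) →* ((Q → R) ≃ᵃ[R] (Q → R)) :=
  FreeGroup.lift fun j => aff R (θ (FreeGroup.of j)) (c j)

theorem Phi_linear (c : Fin n → Q → R) (g : FreeGroup (Fin n)) :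
    (Phi θ c g).linear = rho R (θ g) := by
  have h : (AffineEquiv.linearHom).comp (Phi θ c) = (rhoHom R).comp θ := by
    apply FreeGroup.ext_hom
    intro j
    show (Phi θ c (FreeGroup.of j)).linear = rho R (θ (FreeGroup.of j))
    rw [Phi, FreeGroup.lift_apply_of, aff_linear]
  exact DFunLike.congr_fun h g

theorem Phi_of_apply (c : Fin n → Q → R) (j : Fin n) (v : Q → R) :
    Phi θ c (FreeGroup.of j) v = c j + rho R (θ (FreeGroup.of j)) v := by
  rw [Phi, FreeGroup.lift_apply_of, aff_apply]

theorem Phi_of (c : Fin n → Q → R) (j : Fin n) : Phi θ c (FreeGroup.of j) 0 = c j := by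
  rw [Phi_of_apply, map_zero, add_zero]

/-- The derivation attached to `c`, evaluated at a fixed element, is linear in `c`. -/
theorem exists_linear (g : FreeGroup (Fin n)) :
    ∃ ℓ : (Fin n → Q → R) →ₗ[R] (Q → R), ∀ c : Fin n → Q → R, Phi θ c g 0 = ℓ c := by
  induction g using FreeGroup.induction_on with
  | C1 => exact ⟨0, fun c => by rw [delta_one]; rfl⟩
  | of j => exact ⟨LinearMap.proj j, fun c => Phi_of θ c j⟩
  | inv_of j ih =>
    obtain ⟨ℓ, hℓ⟩ := ih
    refine ⟨-((rho R (θ (FreeGroup.of j)⁻¹)).toLinearMap ∘ₗ ℓ), fun c => ?_⟩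
    have h := delta_mul θ (Phi θ c) (Phi_linear θ c) (FreeGroup.of j)⁻¹ (FreeGroup.of j)
    rw [inv_mul_cancel, delta_one, hℓ] at h
    rw [LinearMap.neg_apply, LinearMap.comp_apply]
    exact eq_neg_of_add_eq_zero_left h.symm
  | mul g h ihg ihh =>
    obtain ⟨ℓ₁, h₁⟩ := ihg
    obtain ⟨ℓ₂, h₂⟩ := ihh
    refine ⟨ℓ₁ + (rho R (θ g)).toLinearMap ∘ₗ ℓ₂, fun c => ?_⟩
    rw [delta_mul θ (Phi θ c) (Phi_linear θ c), h₁, h₂]
    rfl

/-- Functoriality of the affine representation in the coefficient ring. -/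
theorem Phi_map {R' : Type*} [CommRing R'] (f : R →+* R') (c : Fin n → Q → R)
    (g : FreeGroup (Fin n)) :
    ∀ v : Q → R, Phi θ (fun j x => f (c j x)) g (fun x => f (v x)) =
      fun x => f (Phi θ c g v x) := by
  induction g using FreeGroup.induction_on with
  | C1 =>
    intro v
    rw [map_one, map_one]
    rfl
  | of j =>
    intro v
    rw [Phi_of_apply, Phi_of_apply]
    funext x
    simp [rho_apply]
  | inv_of j ih =>
    intro v
    have h := ih ((Phi θ c (FreeGroup.of j))⁻¹ v)
    have e1 : Phi θ c (FreeGroup.of j) ((Phi θ c (FreeGroup.of j))⁻¹ v) = v := by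
      rw [← Function.comp_apply (f := ⇑(Phi θ c (FreeGroup.of j))), ← AffineEquiv.coe_mul,
        mul_inv_cancel]
      rfl
    rw [e1] at h
    rw [map_inv, map_inv, ← h,
      ← Function.comp_apply (f := ⇑(Phi θ (fun j x => f (c j x)) (FreeGroup.of j))⁻¹),
      ← AffineEquiv.coe_mul, inv_mul_cancel]
    rfl
  | mul g h ihg ihh =>
    intro v
    rw [map_mul, map_mul, AffineEquiv.coe_mul, AffineEquiv.coe_mul, Function.comp_apply,
      Function.comp_apply, ihh v, ihg]

/-- Functoriality for the derivation itself. -/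
theorem Phi_map_zero {R' : Type*} [CommRing R'] (f : R →+* R') (c : Fin n → Q → R)
    (g : FreeGroup (Fin n)) :
    Phi θ (fun j x => f (c j x)) g 0 = fun x => f (Phi θ c g 0 x) := by
  have h := Phi_map θ f c g 0
  have h0 : (fun x : Q => f ((0 : Q → R) x)) = 0 := by
    funext x
    simp
  rw [h0] at h
  exact h

end Free

section Presented

variable {R : Type*} [CommRing R] {Q : Type u} [Group Q]
variable {n : ℕ} (rels : Set (FreeGroup (Fin n))) (θ : FreeGroup (Fin n) →* Q)

/-- The affine representation of a presented group, when the relators act trivially. -/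
noncomputable def PsiG (c : Fin n → Q → R) (h : ∀ r ∈ rels, Phi θ c r = 1) :
    PresentedGroup rels →* ((Q → R) ≃ᵃ[R] (Q → R)) :=
  PresentedGroup.toGroup (f := fun j => aff R (θ (FreeGroup.of j)) (c j)) h

theorem PsiG_mk (c : Fin n → Q → R) (h : ∀ r ∈ rels, Phi θ c r = 1) (g : FreeGroup (Fin n)) :
    PsiG rels θ c h (PresentedGroup.mk rels g) = Phi θ c g := rfl

theorem PsiG_linear (π : PresentedGroup rels →* Q) (hθ : θ = π.comp (PresentedGroup.mk rels))
    (c : Fin n → Q → R) (h : ∀ r ∈ rels, Phi θ c r = 1) (g : PresentedGroup rels) :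
    (PsiG rels θ c h g).linear = rho R (π g) := by
  obtain ⟨f, rfl⟩ := PresentedGroup.mk_surjective rels g
  rw [PsiG_mk, Phi_linear, hθ]
  rfl

/-- A relator acts trivially as soon as it is in the kernel and its derivation value vanishes. -/
theorem Phi_eq_one_iff (c : Fin n → Q → R) (g : FreeGroup (Fin n)) (hg : θ g = 1) :
    Phi θ c g = 1 ↔ Phi θ c g 0 = 0 :=
  psi_eq_one_iff θ (Phi θ c) (Phi_linear θ c) g hg

end Presented

end Vale.Agent.H52.PD
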