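import Mathlib
import Vale.Agent.H52.Deriv
import Vale.Agent.H52.PD.Aff

/-!
# Counting derivations: a partial Euler-characteristic count

Let `θ : F → Q` be a homomorphism from the free group on `n` generators to a finite group and
let `S` be a set of power words `w i ^ e i` with `θ (w i) ^ e i = 1`.  If
`∑ i ∈ S, 1 / ord (θ (w i)) < n - 1 + 1 / |Q|`, there is a derivation `F → ℤ[Q]` (with integral
values) that kills the words in `S` and is not inner (over `ℚ`).

The second result is the endgame: a non-inner rational derivation of a presented group with a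
surjection `π` onto `Q` does not vanish on the kernel of `π`.
-/

namespace Vale.Agent.H52.PD

open Module

universe u

variable {n m : ℕ} {Q : Type u} [Group Q]

/-- The inner derivations `T ↦ (rho (θ xⱼ) T - T)ⱼ`. -/
noncomputable def innerMap (θ : FreeGroup (Fin n) →* Q) : (Q → ℚ) →ₗ[ℚ] (Fin n → Q → ℚ) :=
  LinearMap.pi fun j => (rho ℚ (θ (FreeGroup.of j))).toLinearMap - LinearMap.id

theorem innerMap_apply (θ : FreeGroup (Fin n) →* Q) (T : Q → ℚ) (j : Fin n) :
    innerMap θ T j = rho ℚ (θ (FreeGroup.of j)) T - T := rfl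

theorem exists_rat_derivation [Finite Q] (θ : FreeGroup (Fin n) →* Q)
    (w : Fin m → FreeGroup (Fin n)) (e : Fin m → ℕ) (S : Finset (Fin m))
    (hθpow : ∀ i ∈ S, θ (w i) ^ e i = 1)
    (h : ∑ i ∈ S, (1 : ℚ) / (orderOf (θ (w i)) : ℚ) < (n : ℚ) - 1 + 1 / (Nat.card Q : ℚ)) :
    ∃ c : Fin n → Q → ℚ, (∀ i ∈ S, Phi θ c (w i ^ e i) 0 = 0) ∧
      c ∉ LinearMap.range (innerMap θ) := by
  classical
  let _ : Fintype Q := Fintype.ofFinite Q
  -- the linear maps computing the derivation on the relators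
  choose ℓ hℓ using fun i : Fin m => exists_linear (R := ℚ) θ (w i ^ e i)
  have hfix : ∀ i ∈ S, ∀ c, ℓ i c ∈ Deriv.fixSub (θ (w i)) := by
    intro i hi c
    rw [Deriv.mem_fixSub]
    intro x
    have h1 := rho_delta_pow θ (Phi θ c) (Phi_linear θ c) (w i) (e i) (hθpow i hi)
    rw [hℓ i c] at h1
    have h2 := congrFun h1 x
    rwa [rho_apply] at h2
  let L : (Fin n → Q → ℚ) →ₗ[ℚ] (∀ i : S, Deriv.fixSub (θ (w i))) :=
    LinearMap.pi fun i => (ℓ i).codRestrict (Deriv.fixSub (θ (w i))) (hfix i i.2)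
  let ι : (Q → ℚ) →ₗ[ℚ] (Fin n → Q → ℚ) := innerMap θ
  -- dimensions
  have hdom : finrank ℚ (Fin n → Q → ℚ) = n * Fintype.card Q := by
    rw [Module.finrank_pi_fintype]
    simp [Module.finrank_fintype_fun_eq_card]
  have hcod : finrank ℚ (∀ i : S, Deriv.fixSub (θ (w i))) =
      ∑ i : S, finrank ℚ (Deriv.fixSub (θ (w i))) :=
    Module.finrank_pi_fintype ℚ
  have hker : finrank ℚ (LinearMap.range L) + finrank ℚ (LinearMap.ker L) =
      n * Fintype.card Q := by
    rw [LinearMap.finrank_range_add_finrank_ker, hdom]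
  have hrange : finrank ℚ (LinearMap.range L) ≤ ∑ i : S, finrank ℚ (Deriv.fixSub (θ (w i))) := by
    rw [← hcod]
    exact Submodule.finrank_le _
  have hι : finrank ℚ (LinearMap.range ι) + 1 ≤ Fintype.card Q := by
    have h1 := LinearMap.finrank_range_add_finrank_ker ι
    rw [Module.finrank_fintype_fun_eq_card] at h1
    have h2 : 0 < finrank ℚ (LinearMap.ker ι) := by
      rw [Module.finrank_pos_iff_exists_ne_zero]
      refine ⟨⟨fun _ => 1, ?_⟩, ?_⟩
      · rw [LinearMap.mem_ker]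
        funext j
        show (rho ℚ (θ (FreeGroup.of j))) (fun _ => (1 : ℚ)) - (fun _ => (1 : ℚ)) = 0
        funext x
        simp [rho_apply]
      · intro h0
        have := congrArg (fun f : LinearMap.ker ι => (f : Q → ℚ) 1) h0
        simp at this
    omega
  -- arithmetic
  have hQpos : (0 : ℚ) < (Fintype.card Q : ℚ) := by exact_mod_cast Fintype.card_pos
  have hcardQ : (Nat.card Q : ℚ) = (Fintype.card Q : ℚ) := by rw [Nat.card_eq_fintype_card]
  have hsum : (∑ i : S, (finrank ℚ (Deriv.fixSub (θ (w i))) : ℚ)) <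
      ((n : ℚ) - 1) * Fintype.card Q + 1 := by
    have h1 : ∀ i, (finrank ℚ (Deriv.fixSub (θ (w i))) : ℚ) ≤
        (Fintype.card Q : ℚ) * (1 / (orderOf (θ (w i)) : ℚ)) := by
      intro i
      have h2 := Deriv.finrank_fixSub_mul_le (θ (w i))
      rw [Nat.card_eq_fintype_card] at h2
      have hpos : (0 : ℚ) < (orderOf (θ (w i)) : ℚ) := by
        exact_mod_cast orderOf_pos (θ (w i))
      rw [mul_one_div, le_div_iff₀ hpos]
      exact_mod_cast h2
    calc (∑ i : S, (finrank ℚ (Deriv.fixSub (θ (w i))) : ℚ))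
        ≤ ∑ i : S, (Fintype.card Q : ℚ) * (1 / (orderOf (θ (w i)) : ℚ)) :=
          Finset.sum_le_sum fun i _ => h1 i
      _ = (Fintype.card Q : ℚ) * ∑ i : S, (1 / (orderOf (θ (w i)) : ℚ)) := by
          rw [Finset.mul_sum]
      _ = (Fintype.card Q : ℚ) * ∑ i ∈ S, (1 / (orderOf (θ (w i)) : ℚ)) := by
          rw [Finset.sum_coe_sort S (fun i => (1 : ℚ) / (orderOf (θ (w i)) : ℚ))]
      _ < (Fintype.card Q : ℚ) * ((n : ℚ) - 1 + 1 / (Fintype.card Q : ℚ)) := by
          apply mul_lt_mul_of_pos_left _ hQpos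
          rw [← hcardQ]
          exact h
      _ = ((n : ℚ) - 1) * Fintype.card Q + 1 := by
          field_simp
  have hlt : finrank ℚ (LinearMap.range ι) < finrank ℚ (LinearMap.ker L) := by
    have e1 : ((finrank ℚ (LinearMap.range L) : ℕ) : ℚ) + (finrank ℚ (LinearMap.ker L) : ℚ) =
        (n : ℚ) * Fintype.card Q := by exact_mod_cast hker
    have e2 : ((finrank ℚ (LinearMap.range L) : ℕ) : ℚ) ≤
        ∑ i : S, (finrank ℚ (Deriv.fixSub (θ (w i))) : ℚ) := by exact_mod_cast hrange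
    have e3 : ((finrank ℚ (LinearMap.range ι) : ℕ) : ℚ) + 1 ≤ (Fintype.card Q : ℚ) := by
      exact_mod_cast hι
    have e4 : ((finrank ℚ (LinearMap.range ι) : ℕ) : ℚ) < (finrank ℚ (LinearMap.ker L) : ℚ) := by
      nlinarith
    exact_mod_cast e4
  -- a derivation that is not inner
  obtain ⟨c, hcL, hcι⟩ : ∃ c, c ∈ LinearMap.ker L ∧ c ∉ LinearMap.range ι := by
    by_contra hcon
    push Not at hcon
    have hle : LinearMap.ker L ≤ LinearMap.range ι := fun c hc => hcon c hc
    exact absurd (Submodule.finrank_mono hle) (not_le.mpr hlt)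
  refine ⟨c, ?_, hcι⟩
  intro i hi
  rw [hℓ i c]
  have := congrFun (LinearMap.mem_ker.mp hcL) ⟨i, hi⟩
  exact congrArg Subtype.val this

/-- Integral version: the derivation can be chosen with values in `ℤ[Q]`. -/
theorem exists_int_derivation [Finite Q] (θ : FreeGroup (Fin n) →* Q)
    (w : Fin m → FreeGroup (Fin n)) (e : Fin m → ℕ) (S : Finset (Fin m))
    (hθpow : ∀ i ∈ S, θ (w i) ^ e i = 1)
    (h : ∑ i ∈ S, (1 : ℚ) / (orderOf (θ (w i)) : ℚ) < (n : ℚ) - 1 + 1 / (Nat.card Q : ℚ)) :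
    ∃ z : Fin n → Q → ℤ, (∀ i ∈ S, Phi θ z (w i ^ e i) 0 = 0) ∧
      (fun j x => ((z j x : ℤ) : ℚ)) ∉ LinearMap.range (innerMap θ) := by
  classical
  let _ : Fintype Q := Fintype.ofFinite Q
  obtain ⟨c, hc, hcι⟩ := exists_rat_derivation θ w e S hθpow h
  let N : ℕ := ∏ j, ∏ x, (c j x).den
  have hNpos : 0 < N := by
    apply Finset.prod_pos
    intro j _
    apply Finset.prod_pos
    intro x _
    exact (c j x).den_pos
  have hdvd : ∀ j x, (c j x).den ∣ N := by
    intro j x
    exact (Finset.dvd_prod_of_mem (fun x => (c j x).den) (Finset.mem_univ x)).trans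
      (Finset.dvd_prod_of_mem (fun j => ∏ x, (c j x).den) (Finset.mem_univ j))
  have hint : ∀ j x, ∃ t : ℤ, (t : ℚ) = (N : ℚ) * c j x := by
    intro j x
    obtain ⟨k, hk⟩ := hdvd j x
    refine ⟨(k : ℤ) * (c j x).num, ?_⟩
    rw [hk]
    push_cast
    have := Rat.mul_den_eq_num (c j x)
    rw [← this]
    ring
  choose z hz using hint
  have hzc : (fun j x => ((z j x : ℤ) : ℚ)) = (N : ℚ) • c := by
    funext j x
    rw [hz]
    rfl
  refine ⟨z, ?_, ?_⟩
  · intro i hi
    obtain ⟨ℓ, hℓ⟩ := exists_linear (R := ℚ) θ (w i ^ e i)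
    have h1 : Phi θ (fun j x => ((z j x : ℤ) : ℚ)) (w i ^ e i) 0 = 0 := by
      rw [hzc, hℓ, map_smul, ← hℓ, hc i hi, smul_zero]
    have h2 := Phi_map_zero θ (Int.castRingHom ℚ) z (w i ^ e i)
    have h3 : (fun x => (Int.castRingHom ℚ) (Phi θ z (w i ^ e i) 0 x)) = 0 := by
      rw [← h2]
      exact h1
    funext x
    have h4 : ((Phi θ z (w i ^ e i) 0 x : ℤ) : ℚ) = 0 := congrFun h3 x
    exact_mod_cast h4
  · intro hmem
    apply hcι
    have hN : (N : ℚ) ≠ 0 := by exact_mod_cast hNpos.ne'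
    have h1 : c = (N : ℚ)⁻¹ • ((N : ℚ) • c) := by
      rw [smul_smul, inv_mul_cancel₀ hN, one_smul]
    rw [h1]
    apply Submodule.smul_mem
    rw [← hzc]
    exact hmem

/-- Endgame: a non-inner rational derivation does not vanish on the kernel. -/
theorem exists_ker_ne_zero [Finite Q] (rels : Set (FreeGroup (Fin n)))
    (π : PresentedGroup rels →* Q) (hπ : Function.Surjective π)
    (c : Fin n → Q → ℚ)
    (hkill : ∀ r ∈ rels, Phi (π.comp (PresentedGroup.mk rels)) c r = 1)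
    (hc : c ∉ LinearMap.range (innerMap (π.comp (PresentedGroup.mk rels)))) :
    ∃ k, π k = 1 ∧ PsiG rels (π.comp (PresentedGroup.mk rels)) c hkill k 0 ≠ 0 := by
  classical
  let _ : Fintype Q := Fintype.ofFinite Q
  set θ : FreeGroup (Fin n) →* Q := π.comp (PresentedGroup.mk rels) with hθ
  set Ψ : PresentedGroup rels →* ((Q → ℚ) ≃ᵃ[ℚ] (Q → ℚ)) := PsiG rels θ c hkill with hΨ
  have hlin : ∀ g, (Ψ g).linear = rho ℚ (π g) := PsiG_linear rels θ π hθ c hkill
  have hδof : ∀ j, Ψ (PresentedGroup.of j) 0 = c j := by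
    intro j
    show Phi θ c (FreeGroup.of j) 0 = c j
    exact Phi_of θ c j
  have hQpos : (0 : ℚ) < (Fintype.card Q : ℚ) := by exact_mod_cast Fintype.card_pos
  by_contra hcon
  push Not at hcon
  apply hc
  let s : Q → PresentedGroup rels := Function.surjInv hπ
  have hs : ∀ q, π (s q) = q := Function.surjInv_eq hπ
  let T : Q → ℚ := ∑ q, Ψ (s q) 0
  have key : ∀ g, T = (Fintype.card Q : ℚ) • Ψ g 0 + rho ℚ (π g) T := by
    intro g
    have h1 : ∀ q, Ψ (s (π g * q)) 0 = Ψ g 0 + rho ℚ (π g) (Ψ (s q) 0) := by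
      intro q
      have hk : π ((g * s q)⁻¹ * s (π g * q)) = 1 := by
        rw [map_mul, map_inv, map_mul, hs, hs, inv_mul_cancel]
      have h2 := delta_mul π Ψ hlin (g * s q) ((g * s q)⁻¹ * s (π g * q))
      rw [mul_inv_cancel_left, hcon _ hk, LinearEquiv.map_zero, add_zero] at h2
      rw [h2, delta_mul π Ψ hlin]
    calc T = ∑ q, Ψ (s (π g * q)) 0 :=
          (Equiv.sum_comp (Equiv.mulLeft (π g)) fun q => Ψ (s q) 0).symm
      _ = ∑ q, (Ψ g 0 + rho ℚ (π g) (Ψ (s q) 0)) := Finset.sum_congr rfl fun q _ => h1 q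
      _ = (Fintype.card Q : ℚ) • Ψ g 0 + rho ℚ (π g) T := by
          rw [Finset.sum_add_distrib, Finset.sum_const, Finset.card_univ, map_sum,
            Nat.cast_smul_eq_nsmul ℚ]
  refine ⟨(-(1 / (Fintype.card Q : ℚ))) • T, ?_⟩
  funext j
  show (rho ℚ (θ (FreeGroup.of j))) ((-(1 / (Fintype.card Q : ℚ))) • T) -
    (-(1 / (Fintype.card Q : ℚ))) • T = c j
  have hk := key (PresentedGroup.of j)
  rw [hδof] at hk
  have hθj : θ (FreeGroup.of j) = π (PresentedGroup.of j) := rfl
  have hρT : rho ℚ (π (PresentedGroup.of j)) T = T - (Fintype.card Q : ℚ) • c j :=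
    eq_sub_of_add_eq' hk.symm
  have hne : (Fintype.card Q : ℚ) ≠ 0 := ne_of_gt hQpos
  have hsc : -(-(1 / (Fintype.card Q : ℚ)) * (Fintype.card Q : ℚ)) = 1 := by
    field_simp
  rw [hθj, map_smul, hρT, smul_sub, sub_sub_cancel_left, smul_smul, ← neg_smul, hsc, one_smul]

/-- The endgame, stated for a homomorphism of the free group that factors through `π`. -/
theorem exists_ker_ne_zero' [Finite Q] (rels : Set (FreeGroup (Fin n)))
    (θ : FreeGroup (Fin n) →* Q)
    (π : PresentedGroup rels →* Q) (hθ : θ = π.comp (PresentedGroup.mk rels))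
    (hπ : Function.Surjective π) (c : Fin n → Q → ℚ)
    (hkill : ∀ r ∈ rels, Phi θ c r = 1)
    (hc : c ∉ LinearMap.range (innerMap θ)) :
    ∃ k, π k = 1 ∧ PsiG rels θ c hkill k 0 ≠ 0 := by
  subst hθ
  exact exists_ker_ne_zero rels π hπ c hkill hc

end Vale.Agent.H52.PD
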