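import Mathlib
import Vale.Agent.H52.PD.Count

/-!
# Finitely presented groups of positive `p`-deficiency are not periodic

Let `p` be a prime and `G = ⟨x₁, …, xₙ | w₁ ^ p ^ a₁, …, wₘ ^ p ^ aₘ⟩` with
`∑ i, p ^ (-a i) < n - 1` (positive `p`-deficiency in the sense of Schlage-Puchta).  Then there is
a homomorphism `π` from `G` onto a finite group and a derivation of `G` into `ℤ[Q]` that does not
vanish on the kernel of `π`.  Hence the kernel of `π`, a normal subgroup of finite index, maps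
onto `ℤ`, and `G` is not periodic.

Proof.  Choose a surjection `θ` from the free group onto a finite group that kills the relators
and maximises `∑ i, ord (θ (w i))`.  Call `i` active when `ord (θ (w i)) = p ^ a i`.  Counting
derivations into `ℚ[Q]` that kill the active relators gives a non-inner derivation `D` with
values in `ℤ[Q]`.  If `D (w i ^ ord (θ (w i))) ≠ 0` for some inactive `i`, let `s` be minimal such
that some such value is not divisible by `p ^ s`; then `(D mod p ^ s, θ)` is a homomorphism to a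
finite group that kills all relators (an inactive relator is a `p`-th power of an element of the
kernel of `θ` whose `D`-value is divisible by `p ^ (s - 1)`) and in which some `w i` has larger
order, contradicting maximality.  Hence `D` kills every relator and descends to `G`.
-/

namespace Vale.Agent.H52.PD

open Module

variable {n m : ℕ}

/-- A surjection onto a finite group killing the relators with maximal order profile. -/
theorem exists_max_profile (p : ℕ) (hp : 0 < p) (w : Fin m → FreeGroup (Fin n)) (a : Fin m → ℕ) :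
    ∃ (Q : Type) (_ : Group Q) (_ : Finite Q) (θ : FreeGroup (Fin n) →* Q),
      Function.Surjective θ ∧ (∀ i, θ (w i) ^ p ^ a i = 1) ∧
      ∀ (Q' : Type) (_ : Group Q') (_ : Finite Q') (θ' : FreeGroup (Fin n) →* Q'),
        Function.Surjective θ' → (∀ i, θ' (w i) ^ p ^ a i = 1) →
        ∑ i, orderOf (θ' (w i)) ≤ ∑ i, orderOf (θ (w i)) := by
  classical
  let P : ℕ → Prop := fun t =>
    ∃ (Q : Type) (_ : Group Q) (_ : Finite Q) (θ : FreeGroup (Fin n) →* Q),
      Function.Surjective θ ∧ (∀ i, θ (w i) ^ p ^ a i = 1) ∧ ∑ i, orderOf (θ (w i)) = t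
  let B : ℕ := ∑ i, p ^ a i
  have hB : ∀ t, P t → t ≤ B := by
    rintro t ⟨Q, _, _, θ, -, hrel, rfl⟩
    apply Finset.sum_le_sum
    intro i _
    exact Nat.le_of_dvd (pow_pos hp _) (orderOf_dvd_of_pow_eq_one (hrel i))
  have h0 : ∃ t, P t := by
    refine ⟨_, Unit, inferInstance, inferInstance, 1, ?_, ?_, rfl⟩
    · intro x
      exact ⟨1, rfl⟩
    · intro i
      rfl
  obtain ⟨t0, ht0⟩ := h0
  have hspec : P (Nat.findGreatest P B) := Nat.findGreatest_spec (hB t0 ht0) ht0
  obtain ⟨Q, hG, hF, θ, hsurj, hrel, hsum⟩ := hspec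
  refine ⟨Q, hG, hF, θ, hsurj, hrel, ?_⟩
  intro Q' hG' hF' θ' hsurj' hrel'
  have hP : P (∑ i, orderOf (θ' (w i))) := ⟨Q', hG', hF', θ', hsurj', hrel', rfl⟩
  rw [hsum]
  exact Nat.le_findGreatest (hB _ hP) hP

instance affineEquivFinite (N : ℕ) [NeZero N] (Q : Type) [Finite Q] :
    Finite ((Q → ZMod N) ≃ᵃ[ZMod N] (Q → ZMod N)) :=
  Finite.of_injective (fun e => e.toEquiv) AffineEquiv.toEquiv_injective

/-- The kernel of the refined homomorphism `(D mod N, θ)`. -/
theorem refine_iff {Q : Type} [Group Q] (θ : FreeGroup (Fin n) →* Q) (z : Fin n → Q → ℤ) (N : ℕ)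
    (g : FreeGroup (Fin n)) :
    ((Phi θ (fun j x => ((z j x : ℤ) : ZMod N))).prod θ) g = 1 ↔
      (θ g = 1 ∧ ∀ x, (N : ℤ) ∣ Phi θ z g 0 x) := by
  have hmap := Phi_map_zero θ (Int.castRingHom (ZMod N)) z g
  have hmap' : Phi θ (fun j x => ((z j x : ℤ) : ZMod N)) g 0 =
      fun x => ((Phi θ z g 0 x : ℤ) : ZMod N) := hmap
  rw [MonoidHom.prod_apply, Prod.mk_eq_one]
  constructor
  · rintro ⟨h1, h2⟩
    refine ⟨h2, fun x => ?_⟩
    rw [Phi_eq_one_iff θ _ g h2, hmap'] at h1
    have := congrFun h1 x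
    exact (ZMod.intCast_zmod_eq_zero_iff_dvd _ N).mp this
  · rintro ⟨h2, h3⟩
    refine ⟨?_, h2⟩
    rw [Phi_eq_one_iff θ _ g h2, hmap']
    funext x
    exact (ZMod.intCast_zmod_eq_zero_iff_dvd _ N).mpr (h3 x)

/-- Main technical theorem: a derivation into `ℤ[Q]` that does not vanish on the kernel. -/
theorem exists_derivation (p : ℕ) (hp : p.Prime) (w : Fin m → FreeGroup (Fin n)) (a : Fin m → ℕ)
    (hσ : ∑ i, (1 : ℚ) / (p : ℚ) ^ a i < (n : ℚ) - 1) :
    ∃ (Q : Type) (_ : Group Q) (_ : Finite Q)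
      (π : PresentedGroup (Set.range fun i => w i ^ p ^ a i) →* Q)
      (Ψ : PresentedGroup (Set.range fun i => w i ^ p ^ a i) →* ((Q → ℤ) ≃ᵃ[ℤ] (Q → ℤ))),
      (∀ g, (Ψ g).linear = rho ℤ (π g)) ∧ ∃ k, π k = 1 ∧ Ψ k 0 ≠ 0 := by
  classical
  obtain ⟨Q, hG, hF, θ, hsurj, hrel, hmax⟩ := exists_max_profile p hp.pos w a
  set o : Fin m → ℕ := fun i => orderOf (θ (w i)) with ho_def
  have ho : ∀ i, o i ∣ p ^ a i := fun i => orderOf_dvd_of_pow_eq_one (hrel i)
  let S : Finset (Fin m) := Finset.univ.filter fun i => o i = p ^ a i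
  have hmemS : ∀ i, i ∈ S ↔ o i = p ^ a i := fun i => by simp [S]
  have hpQ : (0 : ℚ) < (p : ℚ) := by exact_mod_cast hp.pos
  -- the count
  have hS : ∑ i ∈ S, (1 : ℚ) / (orderOf (θ (w i)) : ℚ) <
      (n : ℚ) - 1 + 1 / (Nat.card Q : ℚ) := by
    have h1 : ∑ i ∈ S, (1 : ℚ) / (orderOf (θ (w i)) : ℚ) ≤ ∑ i, (1 : ℚ) / (p : ℚ) ^ a i := by
      calc ∑ i ∈ S, (1 : ℚ) / (orderOf (θ (w i)) : ℚ)
          = ∑ i ∈ S, (1 : ℚ) / (p : ℚ) ^ a i := by
            apply Finset.sum_congr rfl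
            intro i hi
            have : orderOf (θ (w i)) = p ^ a i := (hmemS i).mp hi
            rw [this]
            push_cast
            rfl
        _ ≤ ∑ i, (1 : ℚ) / (p : ℚ) ^ a i := by
            apply Finset.sum_le_sum_of_subset_of_nonneg (Finset.subset_univ S)
            intro i _ _
            positivity
    have h2 : (0 : ℚ) < 1 / (Nat.card Q : ℚ) := by
      apply one_div_pos.mpr
      exact_mod_cast Nat.card_pos
    linarith
  obtain ⟨z, hzS, hzι⟩ :=
    exists_int_derivation θ w (fun i => p ^ a i) S (fun i _ => hrel i) hS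
  have hlinZ := Phi_linear θ z
  -- inactive relators are proper `p`-th powers of elements of the kernel
  have hker : ∀ i, θ (w i ^ o i) = 1 := by
    intro i
    rw [map_pow]
    exact pow_orderOf_eq_one _
  have hinact : ∀ i, i ∉ S → ∃ c, 0 < c ∧ w i ^ p ^ a i = (w i ^ o i) ^ p ^ c := by
    intro i hi
    obtain ⟨b, hb, hob⟩ := (Nat.dvd_prime_pow hp).mp (ho i)
    have hne : b ≠ a i := by
      intro h
      apply hi
      rw [hmemS, hob, h]
    refine ⟨a i - b, by omega, ?_⟩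
    rw [← pow_mul, hob, ← pow_add]
    congr 2
    omega
  -- key claim: the derivation kills the roots of the inactive relators
  have hy : ∀ i, i ∉ S → Phi θ z (w i ^ o i) 0 = 0 := by
    by_contra hcon
    push Not at hcon
    obtain ⟨i0, hi0, hne⟩ := hcon
    obtain ⟨x0, hx0⟩ := Function.ne_iff.mp hne
    have hx0' : Phi θ z (w i0 ^ o i0) 0 x0 ≠ 0 := hx0
    let P2 : ℕ → Prop := fun s =>
      ∃ i, i ∉ S ∧ ∃ x, ¬ (((p ^ s : ℕ) : ℤ) ∣ Phi θ z (w i ^ o i) 0 x)
    have hex : ∃ s, P2 s := by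
      refine ⟨(Phi θ z (w i0 ^ o i0) 0 x0).natAbs, i0, hi0, x0, ?_⟩
      intro hdvd
      have h1 : p ^ (Phi θ z (w i0 ^ o i0) 0 x0).natAbs ∣ (Phi θ z (w i0 ^ o i0) 0 x0).natAbs :=
        Int.natCast_dvd.mp hdvd
      have h2 := Nat.le_of_dvd (Int.natAbs_pos.mpr hx0') h1
      have h3 := Nat.lt_pow_self (n := (Phi θ z (w i0 ^ o i0) 0 x0).natAbs) hp.one_lt
      omega
    have hs : P2 (Nat.find hex) := Nat.find_spec hex
    have hmin : ∀ t, t < Nat.find hex → ¬ P2 t := fun t ht => Nat.find_min hex ht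
    have hs0 : Nat.find hex ≠ 0 := by
      intro h0
      rw [h0] at hs
      obtain ⟨i, -, x, hx⟩ := hs
      apply hx
      simp
    obtain ⟨s', hs'⟩ := Nat.exists_eq_succ_of_ne_zero hs0
    rw [hs'] at hs
    have hprev : ∀ i, i ∉ S → ∀ x, ((p ^ s' : ℕ) : ℤ) ∣ Phi θ z (w i ^ o i) 0 x := by
      intro i hi x
      by_contra hx
      exact hmin s' (by omega) ⟨i, hi, x, hx⟩
    obtain ⟨i1, hi1, x1, hx1⟩ := hs
    -- the refined homomorphism
    have : NeZero (p ^ (s' + 1)) := ⟨pow_ne_zero _ hp.ne_zero⟩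
    set θ2 : FreeGroup (Fin n) →*
        ((Q → ZMod (p ^ (s' + 1))) ≃ᵃ[ZMod (p ^ (s' + 1))] (Q → ZMod (p ^ (s' + 1)))) × Q :=
      (Phi θ (fun j x => ((z j x : ℤ) : ZMod (p ^ (s' + 1))))).prod θ with hθ2
    have hθ2iff : ∀ g, θ2 g = 1 ↔
        (θ g = 1 ∧ ∀ x, ((p ^ (s' + 1) : ℕ) : ℤ) ∣ Phi θ z g 0 x) :=
      fun g => refine_iff θ z (p ^ (s' + 1)) g
    have hθ2rel : ∀ i, θ2 (w i ^ p ^ a i) = 1 := by
      intro i
      rw [hθ2iff]
      refine ⟨by rw [map_pow]; exact hrel i, fun x => ?_⟩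
      by_cases hi : i ∈ S
      · rw [hzS i hi]
        exact dvd_zero _
      · obtain ⟨c, hc, hwc⟩ := hinact i hi
        rw [hwc, delta_pow_of_ker θ (Phi θ z) hlinZ (w i ^ o i) (hker i) (p ^ c)]
        have h1 : (p ^ c • Phi θ z (w i ^ o i) 0) x =
            ((p ^ c : ℕ) : ℤ) * Phi θ z (w i ^ o i) 0 x := by
          rw [Pi.smul_apply, nsmul_eq_mul]
        rw [h1]
        have h2 : ((p ^ (s' + 1) : ℕ) : ℤ) = ((p : ℕ) : ℤ) * ((p ^ s' : ℕ) : ℤ) := by
          push_cast
          ring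
        rw [h2]
        apply mul_dvd_mul _ (hprev i hi x)
        exact_mod_cast dvd_pow_self p hc.ne'
    have hsurj2 : Function.Surjective θ2.rangeRestrict := θ2.rangeRestrict_surjective
    have hrel2 : ∀ i, θ2.rangeRestrict (w i) ^ p ^ a i = 1 := by
      intro i
      rw [← map_pow]
      apply Subtype.ext
      exact hθ2rel i
    have hord2 : ∀ g, orderOf (θ2.rangeRestrict g) = orderOf (θ2 g) := by
      intro g
      rw [← Subgroup.orderOf_coe]
      rfl
    have hle : ∀ i, o i ≤ orderOf (θ2.rangeRestrict (w i)) := by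
      intro i
      rw [hord2]
      apply Nat.le_of_dvd (orderOf_pos _)
      exact orderOf_map_dvd (MonoidHom.snd _ Q) (θ2 (w i))
    have hlt : o i1 < orderOf (θ2.rangeRestrict (w i1)) := by
      apply lt_of_le_of_ne (hle i1)
      intro heq
      have h1 : θ2 (w i1) ^ o i1 = 1 := by
        rw [heq, hord2]
        exact pow_orderOf_eq_one _
      rw [← map_pow, hθ2iff] at h1
      exact hx1 (h1.2 x1)
    have hgt : ∑ i, o i < ∑ i, orderOf (θ2.rangeRestrict (w i)) :=
      Finset.sum_lt_sum (fun i _ => hle i) ⟨i1, Finset.mem_univ i1, hlt⟩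
    have := hmax θ2.range inferInstance inferInstance θ2.rangeRestrict hsurj2 hrel2
    exact absurd this (not_le.mpr hgt)
  -- the derivation kills all relators
  have hall : ∀ i, Phi θ z (w i ^ p ^ a i) 0 = 0 := by
    intro i
    by_cases hi : i ∈ S
    · exact hzS i hi
    · obtain ⟨c, -, hwc⟩ := hinact i hi
      rw [hwc, delta_pow_of_ker θ (Phi θ z) hlinZ (w i ^ o i) (hker i) (p ^ c), hy i hi,
        smul_zero]
  set rels : Set (FreeGroup (Fin n)) := Set.range fun i => w i ^ p ^ a i with hrels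
  have hθrels : ∀ r ∈ rels, θ r = 1 := by
    rintro r ⟨i, rfl⟩
    show θ (w i ^ p ^ a i) = 1
    rw [map_pow]
    exact hrel i
  have hkillZ : ∀ r ∈ rels, Phi θ z r = 1 := by
    intro r hr
    rw [Phi_eq_one_iff θ z r (hθrels r hr)]
    obtain ⟨i, rfl⟩ := hr
    exact hall i
  have hmapQ : ∀ g, Phi θ (fun j x => ((z j x : ℤ) : ℚ)) g 0 =
      fun x => ((Phi θ z g 0 x : ℤ) : ℚ) :=
    fun g => Phi_map_zero θ (Int.castRingHom ℚ) z g
  have hkillQ : ∀ r ∈ rels, Phi θ (fun j x => ((z j x : ℤ) : ℚ)) r = 1 := by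
    intro r hr
    rw [Phi_eq_one_iff θ _ r (hθrels r hr), hmapQ]
    obtain ⟨i, rfl⟩ := hr
    funext x
    show ((Phi θ z (w i ^ p ^ a i) 0 x : ℤ) : ℚ) = 0
    rw [hall i]
    simp
  -- descend `θ` to the presented group
  have hle : Subgroup.normalClosure rels ≤ θ.ker :=
    Subgroup.normalClosure_le_normal fun r hr => MonoidHom.mem_ker.mpr (hθrels r hr)
  let π : PresentedGroup rels →* Q := QuotientGroup.lift (Subgroup.normalClosure rels) θ hle
  have hθπ : θ = π.comp (PresentedGroup.mk rels) := by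
    ext j
    rfl
  have hπsurj : Function.Surjective π := by
    intro q
    obtain ⟨g, rfl⟩ := hsurj q
    exact ⟨PresentedGroup.mk rels g, rfl⟩
  obtain ⟨k, hk1, hk0⟩ : ∃ k, π k = 1 ∧
      PsiG rels θ (fun j x => ((z j x : ℤ) : ℚ)) hkillQ k 0 ≠ 0 :=
    exists_ker_ne_zero' rels θ π hθπ hπsurj _ hkillQ hzι
  refine ⟨Q, hG, hF, π, PsiG rels θ z hkillZ, PsiG_linear rels θ π hθπ z hkillZ, k, hk1, ?_⟩
  intro h0
  apply hk0
  obtain ⟨g, rfl⟩ := PresentedGroup.mk_surjective rels k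
  rw [PsiG_mk] at h0 ⊢
  rw [hmapQ, h0]
  funext x
  simp

end Vale.Agent.H52.PD
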